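import Crest.Agent.R330.Defs

/-! # Row 330, A1/A (statements frozen; see `R330/Blueprint.lean`) -/

set_option autoImplicit false
set_option linter.unusedSectionVars false

noncomputable section

open MeasureTheory Filter Topology
open scoped InnerProductSpace ContDiff Matrix

namespace Crest.Agent.R330

variable {Θ Θ' F : Type} [NormedAddCommGroup Θ] [InnerProductSpace ℝ Θ] [FiniteDimensional ℝ Θ]
  [NormedAddCommGroup Θ'] [InnerProductSpace ℝ Θ'] [FiniteDimensional ℝ Θ']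
  [NormedAddCommGroup F] [InnerProductSpace ℂ F] [FiniteDimensional ℂ F]

namespace Cl

variable (C : Cl Θ F)

theorem θ_smul (r : ℝ) (v : Θ) : C.θ (r • v) = (r : ℂ) • C.θ v := by
  rw [map_smul]
  ext a
  simp

theorem θ_sq (v : Θ) : C.θ v * C.θ v = ((‖v‖ ^ 2 / 2 : ℝ) : ℂ) • (1 : F →L[ℂ] F) := by
  have h := C.anti v v
  rw [real_inner_self_eq_norm_sq, ← two_smul ℂ] at h
  have h2 : C.θ v * C.θ v = (1 / 2 : ℂ) • ((2 : ℂ) • (C.θ v * C.θ v)) := by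
    rw [smul_smul]
    norm_num
  rw [h2, h, smul_smul]
  congr 1
  push_cast
  ring

theorem inner_θ (v : Θ) (a b : F) : ⟪C.θ v a, b⟫_ℂ = ⟪a, C.θ v b⟫_ℂ := by
  have : CompleteSpace F := FiniteDimensional.complete ℂ F
  exact (C.sa v).isSymmetric a b

theorem norm_θ_sq (v : Θ) (a : F) : ‖C.θ v a‖ ^ 2 = ‖v‖ ^ 2 / 2 * ‖a‖ ^ 2 := by
  have h : ⟪C.θ v a, C.θ v a⟫_ℂ = ((‖v‖ ^ 2 / 2 : ℝ) : ℂ) * ⟪a, a⟫_ℂ := by
    rw [C.inner_θ, ← mul_apply_eq_comp, C.θ_sq, smul_apply,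
      one_apply_eq_self, inner_smul_right]
  rw [inner_self_eq_norm_sq_to_K, inner_self_eq_norm_sq_to_K] at h
  have h' : ((‖C.θ v a‖ ^ 2 : ℝ) : ℂ) = ((‖v‖ ^ 2 / 2 * ‖a‖ ^ 2 : ℝ) : ℂ) := by
    push_cast at h ⊢
    exact h
  exact_mod_cast h'

theorem norm_θ_le (v : Θ) (a : F) : ‖C.θ v a‖ ≤ ‖v‖ * ‖a‖ := by
  refine le_of_sq_le_sq ?_ (by positivity)
  rw [C.norm_θ_sq, mul_pow]
  nlinarith [mul_nonneg (sq_nonneg ‖v‖) (sq_nonneg ‖a‖)]

theorem contDiff_θ : ContDiff ℝ ∞ fun v : Θ => C.θ v := by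
  exact (LinearMap.toContinuousLinearMap C.θ).contDiff

/-- Basis independence of bilinear contractions (used everywhere). -/
theorem _root_.Crest.Agent.R330.sum_onb {W : Type} [AddCommGroup W] [Module ℝ W] {ι κ : Type}
    [Fintype ι] [Fintype κ] (B : Θ →ₗ[ℝ] Θ →ₗ[ℝ] W) (b : OrthonormalBasis ι ℝ Θ)
    (b' : OrthonormalBasis κ ℝ Θ) : ∑ i, B (b i) (b i) = ∑ i, B (b' i) (b' i) := by
  calc ∑ i, B (b i) (b i) = ∑ i, ∑ j, ⟪b' j, b i⟫_ℝ • B (b' j) (b i) := by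
        refine Finset.sum_congr rfl fun i _ => ?_
        conv_lhs => enter [1, 2]; rw [← b'.sum_repr' (b i)]
        simp only [map_sum, map_smul, LinearMap.sum_apply, LinearMap.smul_apply]
    _ = ∑ j, B (b' j) (b' j) := by
        rw [Finset.sum_comm]
        refine Finset.sum_congr rfl fun j _ => ?_
        conv_rhs => enter [2]; rw [← b.sum_repr' (b' j)]
        simp only [map_sum, map_smul, real_inner_comm]
/-- the bilinear map `(u, v) ↦ θ (A u) θ v` -/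
def aAa_bil (A : Θ →ₗ[ℝ] Θ) : Θ →ₗ[ℝ] Θ →ₗ[ℝ] (F →L[ℂ] F) :=
  LinearMap.mk₂ ℝ (fun u v => C.θ (A u) * C.θ v) (fun u u' v => by simp only [map_add, add_mul])
    (fun r u v => by simp only [map_smul, smul_mul_assoc]) (fun u v v' => by simp only [map_add, mul_add])
    (fun r u v => by simp only [map_smul, mul_smul_comm])


theorem S_eq_sum {ι : Type} [Fintype ι] (b : OrthonormalBasis ι ℝ Θ) (A : Θ →ₗ[ℝ] Θ) :
    C.S A = (1 / 2 : ℂ) • ∑ i, C.θ (A (b i)) * C.θ (b i) := by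
  unfold Cl.S
  congr 1
  exact sum_onb (C.aAa_bil A) (stdOrthonormalBasis ℝ Θ) b

theorem S_add (A B : Θ →ₗ[ℝ] Θ) : C.S (A + B) = C.S A + C.S B := by
  simp only [Cl.S, LinearMap.add_apply, map_add, add_mul, Finset.sum_add_distrib, smul_add]

theorem S_smul (r : ℝ) (A : Θ →ₗ[ℝ] Θ) : C.S (r • A) = (r : ℂ) • C.S A := by
  simp only [Cl.S, LinearMap.smul_apply, C.θ_smul, smul_mul_assoc, ← Finset.smul_sum]
  rw [smul_comm]

theorem S_neg (A : Θ →ₗ[ℝ] Θ) : C.S (-A) = -C.S A := by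
  simp only [Cl.S, LinearMap.neg_apply, map_neg, neg_mul, Finset.sum_neg_distrib, smul_neg]

theorem S_sub (A B : Θ →ₗ[ℝ] Θ) : C.S (A - B) = C.S A - C.S B := by
  rw [sub_eq_add_neg, C.S_add, C.S_neg, sub_eq_add_neg]

theorem S_zero : C.S 0 = 0 := by
  simp only [Cl.S, LinearMap.zero_apply, map_zero, zero_mul, Finset.sum_const_zero, smul_zero]

theorem S_sum {ι : Type} (s : Finset ι) (A : ι → Θ →ₗ[ℝ] Θ) :
    C.S (∑ i ∈ s, A i) = ∑ i ∈ s, C.S (A i) := by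
  classical
  induction s using Finset.induction_on with
  | empty => simpa using C.S_zero
  | insert a s ha ih => rw [Finset.sum_insert ha, Finset.sum_insert ha, C.S_add, ih]

/-- `S` of a symmetric map is a scalar. -/
theorem S_symm (B : Θ →ₗ[ℝ] Θ) (hB : ∀ u v, ⟪B u, v⟫_ℝ = ⟪u, B v⟫_ℝ) :
    C.S B = ((LinearMap.trace ℝ Θ B / 4 : ℝ) : ℂ) • (1 : F →L[ℂ] F) := by
  set b := stdOrthonormalBasis ℝ Θ with hb
  have h1 : ∀ i, C.θ (B (b i)) = ∑ j, ⟪b j, B (b i)⟫_ℝ • C.θ (b j) := fun i => by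
    conv_lhs => rw [← b.sum_repr' (B (b i))]
    simp only [map_sum, map_smul]
  have h2 : ∑ i, C.θ (B (b i)) * C.θ (b i) = ∑ i, C.θ (b i) * C.θ (B (b i)) := by
    simp only [h1, Finset.sum_mul, Finset.mul_sum, smul_mul_assoc, mul_smul_comm]
    rw [Finset.sum_comm]
    refine Finset.sum_congr rfl fun i _ => Finset.sum_congr rfl fun j _ => ?_
    rw [← hB, real_inner_comm]
  have h3 : (2 : ℂ) • ∑ i, C.θ (B (b i)) * C.θ (b i) =
      ((LinearMap.trace ℝ Θ B : ℝ) : ℂ) • (1 : F →L[ℂ] F) := by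
    rw [two_smul]
    nth_rw 2 [h2]
    rw [← Finset.sum_add_distrib, LinearMap.trace_eq_sum_inner B b]
    simp only [C.anti, ← Finset.sum_smul, Complex.ofReal_sum, real_inner_comm]
  have h4 : C.S B = (1 / 4 : ℂ) • ((2 : ℂ) • ∑ i, C.θ (B (b i)) * C.θ (b i)) := by
    rw [smul_smul, Cl.S]
    norm_num [hb]
  rw [h4, h3, smul_smul]
  congr 1
  push_cast
  ring

theorem ab_θ_expand (w : Θ) :
    C.θ w = ∑ j, ((⟪stdOrthonormalBasis ℝ Θ j, w⟫_ℝ : ℝ) : ℂ) • C.θ (stdOrthonormalBasis ℝ Θ j) := by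
  conv_lhs => rw [← (stdOrthonormalBasis ℝ Θ).sum_repr' w]
  rw [map_sum]
  exact Finset.sum_congr rfl fun j _ => C.θ_smul _ _

theorem ab_θ_expand' (a : Θ' →ₗ[ℝ] Θ) (w : Θ') :
    C.θ (a w) = ∑ j, ((⟪stdOrthonormalBasis ℝ Θ' j, w⟫_ℝ : ℝ) : ℂ) •
      C.θ (a (stdOrthonormalBasis ℝ Θ' j)) := by
  conv_lhs => rw [← (stdOrthonormalBasis ℝ Θ').sum_repr' w]
  rw [map_sum, map_sum]
  refine Finset.sum_congr rfl fun j _ => ?_
  rw [map_smul, C.θ_smul]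

theorem ab_two_S (A : Θ →ₗ[ℝ] Θ) : (2 : ℂ) • C.S A =
    ∑ i, C.θ (A (stdOrthonormalBasis ℝ Θ i)) * C.θ (stdOrthonormalBasis ℝ Θ i) := by
  rw [S, smul_smul]; norm_num

/-- General contraction `Σ_e θ(a e) θ(b e) = 2 S(a bᵀ)` over an orthonormal basis of another space. -/
theorem sum_θθ (a b : Θ' →ₗ[ℝ] Θ) :
    ∑ i, C.θ (a (stdOrthonormalBasis ℝ Θ' i)) * C.θ (b (stdOrthonormalBasis ℝ Θ' i)) =
      (2 : ℂ) • C.S (a ∘ₗ LinearMap.adjoint b) := by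
  rw [ab_two_S]
  have h1 : ∀ i, C.θ (a (stdOrthonormalBasis ℝ Θ' i)) * C.θ (b (stdOrthonormalBasis ℝ Θ' i)) =
      ∑ j, ((⟪stdOrthonormalBasis ℝ Θ j, b (stdOrthonormalBasis ℝ Θ' i)⟫_ℝ : ℝ) : ℂ) •
        (C.θ (a (stdOrthonormalBasis ℝ Θ' i)) * C.θ (stdOrthonormalBasis ℝ Θ j)) := by
    intro i
    rw [C.ab_θ_expand (b _), Finset.mul_sum]
    exact Finset.sum_congr rfl fun j _ => mul_smul_comm _ _ _
  have h2 : ∀ j, C.θ ((a ∘ₗ LinearMap.adjoint b) (stdOrthonormalBasis ℝ Θ j)) *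
      C.θ (stdOrthonormalBasis ℝ Θ j) =
      ∑ i, ((⟪stdOrthonormalBasis ℝ Θ j, b (stdOrthonormalBasis ℝ Θ' i)⟫_ℝ : ℝ) : ℂ) •
        (C.θ (a (stdOrthonormalBasis ℝ Θ' i)) * C.θ (stdOrthonormalBasis ℝ Θ j)) := by
    intro j
    rw [LinearMap.comp_apply, C.ab_θ_expand' a, Finset.sum_mul]
    refine Finset.sum_congr rfl fun i _ => ?_
    rw [smul_mul_assoc, LinearMap.adjoint_inner_right, real_inner_comm]
  rw [Finset.sum_congr rfl fun i _ => h1 i, Finset.sum_congr rfl fun j _ => h2 j, Finset.sum_comm]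

theorem S_comm_θ {A : Θ →ₗ[ℝ] Θ} (hA : IsSkew A) (v : Θ) :
    C.S A * C.θ v - C.θ v * C.S A = C.θ (A v) := by
  have key : ∀ x y : Θ, C.θ x * C.θ y * C.θ v - C.θ v * (C.θ x * C.θ y) =
      ((⟪y, v⟫_ℝ : ℝ) : ℂ) • C.θ x - ((⟪x, v⟫_ℝ : ℝ) : ℂ) • C.θ y := by
    intro x y
    have h1 : C.θ x * (C.θ y * C.θ v + C.θ v * C.θ y) = ((⟪y, v⟫_ℝ : ℝ) : ℂ) • C.θ x := by
      rw [C.anti, mul_smul_comm, mul_one]
    have h2 : (C.θ x * C.θ v + C.θ v * C.θ x) * C.θ y = ((⟪x, v⟫_ℝ : ℝ) : ℂ) • C.θ y := by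
      rw [C.anti, smul_mul_assoc, one_mul]
    rw [← h1, ← h2]; noncomm_ring
  have h2 : (2 : ℂ) • (C.S A * C.θ v - C.θ v * C.S A) = (2 : ℂ) • C.θ (A v) := by
    rw [smul_sub, ← smul_mul_assoc, ← mul_smul_comm, ab_two_S, Finset.sum_mul, Finset.mul_sum,
      ← Finset.sum_sub_distrib, Finset.sum_congr rfl fun i _ => key _ _, Finset.sum_sub_distrib,
      ← C.ab_θ_expand' A v]
    have h3 : ∑ i, ((⟪A (stdOrthonormalBasis ℝ Θ i), v⟫_ℝ : ℝ) : ℂ) •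
        C.θ (stdOrthonormalBasis ℝ Θ i) = -C.θ (A v) := by
      rw [C.ab_θ_expand (A v), ← Finset.sum_neg_distrib]
      refine Finset.sum_congr rfl fun i _ => ?_
      rw [hA, Complex.ofReal_neg, neg_smul]
    rw [h3, two_smul, sub_neg_eq_add]
  exact smul_right_injective _ (two_ne_zero) h2

theorem star_S {A : Θ →ₗ[ℝ] Θ} (hA : IsSkew A) : star (C.S A) = -C.S A := by
  have h0 : ∀ u, ⟪A u, u⟫_ℝ = 0 := fun u => by
    have h := hA u u
    rw [real_inner_comm (A u) u] at h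
    linarith
  rw [S, star_smul, star_sum, ← smul_neg, ← Finset.sum_neg_distrib]
  congr 1
  · simp
  · refine Finset.sum_congr rfl fun i _ => ?_
    rw [star_mul, (C.sa _).star_eq, (C.sa _).star_eq]
    have h := C.anti (A (stdOrthonormalBasis ℝ Θ i)) (stdOrthonormalBasis ℝ Θ i)
    rw [h0, Complex.ofReal_zero, zero_smul] at h
    exact eq_neg_of_add_eq_zero_right h

theorem iS_sa {A : Θ →ₗ[ℝ] Θ} (hA : IsSkew A) : IsSelfAdjoint (C.iS A) := by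
  rw [IsSelfAdjoint, iS, star_smul, C.star_S hA]
  simp

theorem S_lie {A B : Θ →ₗ[ℝ] Θ} (hA : IsSkew A) (hB : IsSkew B) :
    C.S A * C.S B - C.S B * C.S A = C.S (A ∘ₗ B - B ∘ₗ A) := by
  have hadj : LinearMap.adjoint A = -A := by
    refine LinearMap.ext fun u => ext_inner_left ℝ fun w => ?_
    rw [LinearMap.adjoint_inner_right, hA, LinearMap.neg_apply, inner_neg_right]
  have key : ∀ x y : Θ, C.S A * (C.θ x * C.θ y) - C.θ x * C.θ y * C.S A =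
      C.θ (A x) * C.θ y + C.θ x * C.θ (A y) := by
    intro x y
    rw [← C.S_comm_θ hA x, ← C.S_comm_θ hA y]; noncomm_ring
  have h2 : (2 : ℂ) • (C.S A * C.S B - C.S B * C.S A) = (2 : ℂ) • C.S (A ∘ₗ B - B ∘ₗ A) := by
    rw [smul_sub, ← mul_smul_comm, ← smul_mul_assoc, ab_two_S, Finset.sum_mul, Finset.mul_sum,
      ← Finset.sum_sub_distrib, Finset.sum_congr rfl fun i _ => key _ _, Finset.sum_add_distrib,
      C.sum_θθ B A, hadj, S_sub, smul_sub, ab_two_S C (A ∘ₗ B), LinearMap.comp_neg, S_neg, smul_neg,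
      sub_eq_add_neg]
    rfl
  exact smul_right_injective _ (two_ne_zero) h2

theorem norm_S_le (A : Θ →ₗ[ℝ] Θ) (a : ℝ) (ha : 0 ≤ a) (hA : ∀ v, ‖A v‖ ≤ a * ‖v‖) :
    ‖C.S A‖ ≤ (Module.finrank ℝ Θ : ℝ) / 4 * a := by
  have hθ : ∀ v, ‖C.θ v‖ ≤ ‖v‖ * √(1 / 2) := fun v => by
    refine ContinuousLinearMap.opNorm_le_bound _ (by positivity) fun x => ?_
    refine le_of_eq ((pow_left_inj₀ (norm_nonneg _) (by positivity) two_ne_zero).1 ?_)
    rw [C.norm_θ_sq, mul_pow, mul_pow, Real.sq_sqrt (by norm_num)]; ring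
  have hs : √(1 / 2) * √(1 / 2) = (1 / 2 : ℝ) := Real.mul_self_sqrt (by norm_num)
  have h1 : ∀ i, ‖C.θ (A (stdOrthonormalBasis ℝ Θ i)) * C.θ (stdOrthonormalBasis ℝ Θ i)‖ ≤ a / 2 := by
    intro i
    have hn : ‖stdOrthonormalBasis ℝ Θ i‖ = 1 := (stdOrthonormalBasis ℝ Θ).orthonormal.1 i
    have h2 := hA (stdOrthonormalBasis ℝ Θ i)
    have h3 := hθ (stdOrthonormalBasis ℝ Θ i)
    have h4 := hθ (A (stdOrthonormalBasis ℝ Θ i))
    rw [hn, mul_one] at h2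
    rw [hn, one_mul] at h3
    calc _ ≤ ‖C.θ (A (stdOrthonormalBasis ℝ Θ i))‖ * ‖C.θ (stdOrthonormalBasis ℝ Θ i)‖ :=
          norm_mul_le _ _
      _ ≤ (a * √(1 / 2)) * √(1 / 2) :=
          mul_le_mul (h4.trans (by gcongr)) h3 (norm_nonneg _) (by positivity)
      _ = a / 2 := by rw [mul_assoc, hs]; ring
  rw [S, norm_smul]
  have h5 := (norm_sum_le _ _).trans (Finset.sum_le_sum fun i (_ : i ∈ Finset.univ) => h1 i)
  rw [Finset.sum_const, Finset.card_univ, Fintype.card_fin, nsmul_eq_mul] at h5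
  have h6 : ‖(1 / 2 : ℂ)‖ = 1 / 2 := by simp
  rw [h6]
  linarith

/-- An operator commuting or anticommuting with every `θ` commutes with every `S A`. -/
theorem comm_S (T : F →L[ℂ] F) (h : (∀ v, T * C.θ v = C.θ v * T) ∨ ∀ v, T * C.θ v = -(C.θ v * T))
    (A : Θ →ₗ[ℝ] Θ) : T * C.S A = C.S A * T := by
  rw [S, mul_smul_comm, smul_mul_assoc, Finset.mul_sum, Finset.sum_mul]
  congr 1
  refine Finset.sum_congr rfl fun i _ => ?_
  rcases h with h | h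
  · rw [← mul_assoc, h, mul_assoc, h, mul_assoc]
  · rw [← mul_assoc, h, neg_mul, mul_assoc, h, mul_neg, neg_neg, mul_assoc]

theorem S_comap (ι : Θ' →ₗᵢ[ℝ] Θ) (A : Θ' →ₗ[ℝ] Θ') :
    (C.comap ι).S A = C.S (ι.toLinearMap ∘ₗ A ∘ₗ LinearMap.adjoint ι.toLinearMap) := by
  have h2 : (2 : ℂ) • (C.comap ι).S A =
      (2 : ℂ) • C.S (ι.toLinearMap ∘ₗ A ∘ₗ LinearMap.adjoint ι.toLinearMap) := by
    rw [ab_two_S, ← LinearMap.comp_assoc, ← C.sum_θθ (ι.toLinearMap ∘ₗ A) ι.toLinearMap]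
    rfl
  exact smul_right_injective _ (two_ne_zero) h2

end Cl

end Crest.Agent.R330

end
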