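import Crest.Agent.R330.A1.A

/-! # Row 330, A1/B (statements frozen; see `R330/Blueprint.lean`) -/

set_option autoImplicit false
set_option linter.unusedSectionVars false

noncomputable section

open MeasureTheory Filter Topology
open scoped InnerProductSpace ContDiff Matrix

namespace Crest.Agent.R330

variable {Θ Θ' F : Type} [NormedAddCommGroup Θ] [InnerProductSpace ℝ Θ] [FiniteDimensional ℝ Θ]
  [NormedAddCommGroup Θ'] [InnerProductSpace ℝ Θ'] [FiniteDimensional ℝ Θ']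
  [NormedAddCommGroup F] [InnerProductSpace ℂ F] [FiniteDimensional ℂ F]

namespace Cl

end Cl

theorem ba_rexp'_smul (A : Θ →ₗ[ℝ] Θ) (s : ℝ) :
    rexp' (s • A) = NormedSpace.exp (s • LinearMap.toContinuousLinearMap A) := by
  unfold rexp'
  rw [map_smul]

theorem ba_hasDerivAt_clm (A : Θ →ₗ[ℝ] Θ) (t : ℝ) :
    HasDerivAt (fun s : ℝ => rexp' (s • A))
      (LinearMap.toContinuousLinearMap A * rexp' (t • A)) t := by
  simp only [ba_rexp'_smul]
  exact hasDerivAt_exp_smul_const' (𝕂 := ℝ) (LinearMap.toContinuousLinearMap A) t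

theorem ba_hasDerivAt_clm' (A : Θ →ₗ[ℝ] Θ) (t : ℝ) :
    HasDerivAt (fun s : ℝ => rexp' (s • A))
      (rexp' (t • A) * LinearMap.toContinuousLinearMap A) t := by
  simp only [ba_rexp'_smul]
  exact hasDerivAt_exp_smul_const (𝕂 := ℝ) (LinearMap.toContinuousLinearMap A) t

theorem ba_hasDerivAt (A : Θ →ₗ[ℝ] Θ) (v : Θ) (t : ℝ) :
    HasDerivAt (fun s : ℝ => rexp' (s • A) v) (A (rexp' (t • A) v)) t := by
  simpa using (ba_hasDerivAt_clm A t).clm_apply (hasDerivAt_const t v)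

theorem ba_zero (v : Θ) : rexp' (0 : Θ →ₗ[ℝ] Θ) v = v := by
  unfold rexp'
  rw [map_zero, NormedSpace.exp_zero]
  rfl

/-- Uniqueness for the linear ODE `f' = A f`. -/
theorem ba_ode (A : Θ →ₗ[ℝ] Θ) {f : ℝ → Θ} (hf : ∀ s, HasDerivAt f (A (f s)) s) (t : ℝ) :
    f t = rexp' (t • A) (f 0) := by
  have h : ∀ s, HasDerivAt (fun s : ℝ => rexp' ((t - s) • A) (f s)) 0 s := fun s => by
    have h1 : HasDerivAt (fun s : ℝ => rexp' ((t - s) • A))
        ((-1 : ℝ) • (rexp' ((t - s) • A) * LinearMap.toContinuousLinearMap A)) s :=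
      HasDerivAt.scomp s (g₁ := fun r : ℝ => rexp' (r • A)) (ba_hasDerivAt_clm' A (t - s))
        ((hasDerivAt_id s).const_sub t)
    simpa using h1.clm_apply (hf s)
  have := is_const_of_deriv_eq_zero (fun s => (h s).differentiableAt) (fun s => (h s).deriv) t 0
  simpa [ba_zero] using this

/-- The exponential of a skew map is an isometry. -/
theorem norm_rexp' {A : Θ →ₗ[ℝ] Θ} (hA : IsSkew A) (v : Θ) : ‖rexp' A v‖ = ‖v‖ := by
  have h : ∀ s, HasDerivAt (fun s : ℝ => ‖rexp' (s • A) v‖ ^ 2) 0 s := fun s => by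
    have h1 := (ba_hasDerivAt A v s).norm_sq
    have h2 : ⟪rexp' (s • A) v, A (rexp' (s • A) v)⟫_ℝ = 0 := by
      have := hA (rexp' (s • A) v) (rexp' (s • A) v)
      rw [real_inner_comm] at this
      linarith
    rw [h2, mul_zero] at h1
    exact h1
  have := is_const_of_deriv_eq_zero (fun s => (h s).differentiableAt) (fun s => (h s).deriv) 1 0
  simp only [one_smul, zero_smul, ba_zero] at this
  exact (pow_left_inj₀ (norm_nonneg _) (norm_nonneg _) two_ne_zero).mp this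

theorem hasDerivAt_rexp' (A : Θ →ₗ[ℝ] Θ) (v : Θ) (t : ℝ) :
    HasDerivAt (fun s : ℝ => rexp' (s • A) v) (A (rexp' (t • A) v)) t := ba_hasDerivAt A v t

theorem rexp'_zero (v : Θ) : rexp' (0 : Θ →ₗ[ℝ] Θ) v = v := ba_zero v

theorem rexp'_add_smul (A : Θ →ₗ[ℝ] Θ) (s t : ℝ) (v : Θ) :
    rexp' ((s + t) • A) v = rexp' (s • A) (rexp' (t • A) v) := by
  have := ba_ode A (f := fun r => rexp' ((r + t) • A) v) (fun r => by
    simpa using (ba_hasDerivAt A v (r + t)).comp_add_const r t) s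
  simpa using this

/-- Intertwining: `L A = B L` implies `L e^A = e^B L`. -/
theorem rexp'_intertwine (L : Θ →ₗ[ℝ] Θ') (A : Θ →ₗ[ℝ] Θ) (B : Θ' →ₗ[ℝ] Θ')
    (h : L ∘ₗ A = B ∘ₗ L) (v : Θ) : L (rexp' A v) = rexp' B (L v) := by
  have := ba_ode B (f := fun r => L (rexp' (r • A) v)) (fun r => by
    have h1 := (LinearMap.toContinuousLinearMap L).hasFDerivAt.comp_hasDerivAt r
      (ba_hasDerivAt A v r)
    have h2 : L (A (rexp' (r • A) v)) = B (L (rexp' (r • A) v)) := LinearMap.congr_fun h _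
    rw [← h2]
    exact h1) 1
  simpa [ba_zero] using this

/-- `exp(t J) = cos t + sin t J` for a complex structure (on the range where `J² = -1`). -/
theorem rexp'_cx {J : Θ →ₗ[ℝ] Θ} (v : Θ) (hv : J (J v) = -v) (t : ℝ) :
    rexp' (t • J) v = Real.cos t • v + Real.sin t • J v := by
  have := ba_ode J (f := fun r => Real.cos r • v + Real.sin r • J v) (fun r => by
    have h1 := ((Real.hasDerivAt_cos r).smul_const v).add ((Real.hasDerivAt_sin r).smul_const (J v))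
    have h2 : J (Real.cos r • v + Real.sin r • J v) = -Real.sin r • v + Real.cos r • J v := by
      simp only [map_add, map_smul, hv, smul_neg, neg_smul]
      abel
    rw [h2]
    exact h1) t
  simpa using this.symm

namespace Cl

variable (C : Cl Θ F)

theorem bb_exp_add (X : F →L[ℂ] F) : NormedSpace.exp X * NormedSpace.exp (-X) = 1 := by
  let : NormedAlgebra ℚ (F →L[ℂ] F) := NormedAlgebra.restrictScalars ℚ ℂ _
  rw [← NormedSpace.exp_add_of_commute (Commute.refl X).neg_right, add_neg_cancel, NormedSpace.exp_zero]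

theorem bb_sum (p q : Θ) (L : Θ →ₗ[ℝ] Θ) :
    ∑ i, ⟪p, L (stdOrthonormalBasis ℝ Θ i)⟫_ℝ * ⟪q, stdOrthonormalBasis ℝ Θ i⟫_ℝ = ⟪p, L q⟫_ℝ := by
  conv_rhs => rw [← (stdOrthonormalBasis ℝ Θ).sum_repr' q]
  rw [map_sum, inner_sum]
  refine Finset.sum_congr rfl fun i _ => ?_
  rw [map_smul, real_inner_smul_right, real_inner_comm q, mul_comm]

theorem bb_riesz (φ : Θ →ₗ[ℝ] ℝ) : ∃ p : Θ, ∀ v, φ v = ⟪p, v⟫_ℝ :=
  ⟨LinearMap.adjoint φ 1, fun v => by rw [LinearMap.adjoint_inner_left]; simp⟩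

theorem bb_pos {A B : Θ →ₗ[ℝ] Θ} (hA : IsSkew A)
    (hAB : ∀ u v, 2 * ⟪u, A v⟫_ℝ ≤ ⟪u, B u⟫_ℝ + ⟪v, B v⟫_ℝ) (φ : Θ →ₗ[ℝ] ℂ) :
    0 ≤ ∑ i, (starRingEnd ℂ (φ (B (stdOrthonormalBasis ℝ Θ i))) * φ (stdOrthonormalBasis ℝ Θ i) +
      Complex.I * (starRingEnd ℂ (φ (A (stdOrthonormalBasis ℝ Θ i))) * φ (stdOrthonormalBasis ℝ Θ i))).re := by
  obtain ⟨p, hp⟩ := bb_riesz (Complex.reLm ∘ₗ φ)
  obtain ⟨q, hq⟩ := bb_riesz (Complex.imLm ∘ₗ φ)
  have hp' : ∀ v, (φ v).re = ⟪p, v⟫_ℝ := hp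
  have hq' : ∀ v, (φ v).im = ⟪q, v⟫_ℝ := hq
  have h1 := hAB p q
  have h2 := hA p q
  rw [real_inner_comm] at h2
  have h3 : 0 ≤ ⟪p, B p⟫_ℝ + ⟪q, B q⟫_ℝ - ⟪p, A q⟫_ℝ + ⟪q, A p⟫_ℝ := by linarith
  rw [← bb_sum, ← bb_sum, ← bb_sum, ← bb_sum, ← Finset.sum_add_distrib, ← Finset.sum_sub_distrib,
    ← Finset.sum_add_distrib] at h3
  refine h3.trans_eq (Finset.sum_congr rfl fun i _ => ?_)
  simp only [Complex.add_re, Complex.mul_re, Complex.mul_im, Complex.conj_re, Complex.conj_im, Complex.I_re,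
    Complex.I_im, hp', hq']
  ring

theorem exp_S_θ {A : Θ →ₗ[ℝ] Θ} (hA : IsSkew A) (v : Θ) :
    NormedSpace.exp (C.S A) * C.θ v = C.θ (rexp' A v) * NormedSpace.exp (C.S A) :=
  by
  have h : ∀ s : ℝ, HasDerivAt (fun s : ℝ => NormedSpace.exp (s • (-C.S A)) * C.θ (rexp' (s • A) v) *
      NormedSpace.exp (s • C.S A)) 0 s := fun s => by
    have h1 := hasDerivAt_exp_smul_const (𝕂 := ℝ) (-C.S A) s
    have h2 := (LinearMap.toContinuousLinearMap C.θ).hasFDerivAt.comp_hasDerivAt s (hasDerivAt_rexp' A v s)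
    have h3 := hasDerivAt_exp_smul_const' (𝕂 := ℝ) (C.S A) s
    refine ((h1.mul h2).mul h3).congr_deriv ?_
    simp only [LinearMap.coe_toContinuousLinearMap', Function.comp_apply, Pi.mul_apply]
    rw [← C.S_comm_θ hA]
    noncomm_ring
  have h0 := is_const_of_deriv_eq_zero (fun s => (h s).differentiableAt) (fun s => (h s).deriv) 1 0
  simp only [one_smul, zero_smul, NormedSpace.exp_zero, rexp'_zero, one_mul, mul_one] at h0
  rw [← h0, ← mul_assoc, ← mul_assoc, bb_exp_add, one_mul]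

theorem norm_exp_S {A : Θ →ₗ[ℝ] Θ} (hA : IsSkew A) (t k : ℝ) (a : F) :
    ‖NormedSpace.exp ((t : ℂ) • (C.S A + ((k : ℂ) * Complex.I) • 1)) a‖ = ‖a‖ :=
  by
  have hs : star ((t : ℂ) • (C.S A + ((k : ℂ) * Complex.I) • (1 : F →L[ℂ] F))) =
      -((t : ℂ) • (C.S A + ((k : ℂ) * Complex.I) • (1 : F →L[ℂ] F))) := by
    rw [star_smul, star_add, star_smul, C.star_S hA]
    simp only [RCLike.star_def, Complex.conj_ofReal, map_mul, Complex.conj_I, star_one, mul_neg, neg_smul, smul_add,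
      smul_neg, neg_add]
  let : NormedAlgebra ℚ (F →L[ℂ] F) := NormedAlgebra.restrictScalars ℚ ℂ _
  generalize (t : ℂ) • (C.S A + ((k : ℂ) * Complex.I) • (1 : F →L[ℂ] F)) = X at hs ⊢
  have hu : NormedSpace.exp X ∈ unitary (F →L[ℂ] F) :=
    NormedSpace.exp_mem_unitary_of_mem_skewAdjoint (skewAdjoint.mem_iff.2 hs)
  exact ContinuousLinearMap.norm_map_of_mem_unitary hu a

/-- Conjugation: if `U θ(v) = θ(O v) U` with `O` a linear isometric equivalence then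
`U S(A) = S(O A O⁻¹) U`. -/
theorem S_conj (U : F →L[ℂ] F) (O : Θ ≃ₗᵢ[ℝ] Θ) (h : ∀ v, U * C.θ v = C.θ (O v) * U)
    (A : Θ →ₗ[ℝ] Θ) :
    U * C.S A = C.S (O.toLinearEquiv.toLinearMap ∘ₗ A ∘ₗ O.symm.toLinearEquiv.toLinearMap) * U :=
  by
  rw [C.S_eq_sum ((stdOrthonormalBasis ℝ Θ).map O) (_ ∘ₗ _), S, mul_smul_comm, smul_mul_assoc, Finset.mul_sum,
    Finset.sum_mul]
  congr 1
  refine Finset.sum_congr rfl fun i _ => ?_
  rw [← mul_assoc, h, mul_assoc, h, mul_assoc]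
  simp

/-- Lower bound for a fermion bilinear: `B + iA ≥ 0` implies `i S(A) ≥ -¼ tr B`. -/
theorem iS_lower {A B : Θ →ₗ[ℝ] Θ} (hA : IsSkew A) (hB : ∀ u v, ⟪B u, v⟫_ℝ = ⟪u, B v⟫_ℝ)
    (hAB : ∀ u v, 2 * ⟪u, A v⟫_ℝ ≤ ⟪u, B u⟫_ℝ + ⟪v, B v⟫_ℝ) (a : F) :
    -(LinearMap.trace ℝ Θ B / 4) * ‖a‖ ^ 2 ≤ (⟪a, C.iS A a⟫_ℂ).re :=
  by
  let φ : F → Θ →ₗ[ℝ] ℂ := fun f =>
    { toFun := fun v => ⟪f, C.θ v a⟫_ℂ
      map_add' := fun u v => by simp
      map_smul' := fun r v => by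
        rw [C.θ_smul, smul_apply, inner_smul_right]
        simp }
  have key : ∀ L : Θ →ₗ[ℝ] Θ, ⟪a, C.S L a⟫_ℂ = 1 / 2 * ∑ k, ∑ i,
      starRingEnd ℂ (φ (stdOrthonormalBasis ℂ F k) (L (stdOrthonormalBasis ℝ Θ i))) *
        φ (stdOrthonormalBasis ℂ F k) (stdOrthonormalBasis ℝ Θ i) := fun L => by
    rw [S, smul_apply, inner_smul_right, sum_apply, inner_sum,
      Finset.sum_comm]
    congr 1
    refine Finset.sum_congr rfl fun i _ => ?_
    rw [mul_apply_eq_comp, ← C.inner_θ, ← (stdOrthonormalBasis ℂ F).sum_inner_mul_inner]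
    refine Finset.sum_congr rfl fun k _ => ?_
    simp only [φ, LinearMap.coe_mk, AddHom.coe_mk, inner_conj_symm]
  have h1 : 0 ≤ (⟪a, C.S B a⟫_ℂ + Complex.I * ⟪a, C.S A a⟫_ℂ).re := by
    rw [key, key, mul_left_comm, ← mul_add, Finset.mul_sum, ← Finset.sum_add_distrib,
      show (1 / 2 : ℂ) = ((1 / 2 : ℝ) : ℂ) by norm_num, Complex.re_ofReal_mul, Complex.re_sum]
    refine mul_nonneg (by norm_num) (Finset.sum_nonneg fun k _ => ?_)
    rw [Finset.mul_sum, ← Finset.sum_add_distrib, Complex.re_sum]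
    exact bb_pos hA hAB _
  rw [C.S_symm B hB, smul_apply, inner_smul_right, one_apply_eq_self,
    Complex.add_re, Complex.re_ofReal_mul, inner_self_eq_norm_sq_to_K] at h1
  rw [iS, smul_apply, inner_smul_right]
  have h2 : (((‖a‖ : ℝ) : ℂ) ^ 2).re = ‖a‖ ^ 2 := by rw [← Complex.ofReal_pow, Complex.ofReal_re]
  erw [h2] at h1
  linarith

/-- Schur: in an irreducible module an operator commuting with all `θ` is a scalar. -/
theorem schur [Nontrivial F] (hirr : C.Irr) (T : F →L[ℂ] F) (h : ∀ v, T * C.θ v = C.θ v * T) :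
    ∃ c : ℂ, T = c • (1 : F →L[ℂ] F) :=
  by
  obtain ⟨c, hc⟩ := Module.End.exists_eigenvalue (T : F →ₗ[ℂ] F)
  refine ⟨c, ?_⟩
  rcases hirr (Module.End.eigenspace (T : F →ₗ[ℂ] F) c) (fun v x hx => by
    rw [Module.End.mem_eigenspace_iff] at hx ⊢
    have h1 : T (C.θ v x) = C.θ v (T x) := DFunLike.congr_fun (h v) x
    have h2 : T x = c • x := hx
    change T (C.θ v x) = _
    rw [h1, h2, map_smul]) with h1 | h1
  · exact absurd h1 hc
  · ext x
    have : x ∈ Module.End.eigenspace (T : F →ₗ[ℂ] F) c := h1 ▸ Submodule.mem_top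
    exact Module.End.mem_eigenspace_iff.1 this

end Cl

end Crest.Agent.R330

end
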