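import Crest.Agent.R330.A1.B

/-! # Row 330, A1/C (statements frozen; see `R330/Blueprint.lean`) -/

set_option autoImplicit false
set_option linter.unusedSectionVars false

noncomputable section

open MeasureTheory Filter Topology
open scoped InnerProductSpace ContDiff Matrix

namespace Crest.Agent.R330

variable {Θ Θ' F : Type} [NormedAddCommGroup Θ] [InnerProductSpace ℝ Θ] [FiniteDimensional ℝ Θ]
  [NormedAddCommGroup Θ'] [InnerProductSpace ℝ Θ'] [FiniteDimensional ℝ Θ']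
  [NormedAddCommGroup F] [InnerProductSpace ℂ F] [FiniteDimensional ℂ F]

namespace Cl

variable (C : Cl Θ F)

section Vac

variable {J : Θ →ₗ[ℝ] Θ}

theorem a1c_star_ann (v : Θ) : star (C.ann J v) = C.θ v + Complex.I • C.θ (J v) := by
  rw [ann, star_sub, star_smul, (C.sa v).star_eq, (C.sa (J v)).star_eq]
  simp

theorem a1c_skew_self {A : Θ →ₗ[ℝ] Θ} (hA : IsSkew A) (v : Θ) : ⟪A v, v⟫_ℝ = 0 := by
  have := hA v v
  rw [real_inner_comm (A v) v] at this
  linarith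

theorem a1c_norm_J (hJ : IsCx J) (v : Θ) : ‖J v‖ = ‖v‖ := by
  have := hJ.1 v (J v)
  rw [hJ.2, inner_neg_right, neg_neg, real_inner_self_eq_norm_sq, real_inner_self_eq_norm_sq] at this
  exact (pow_left_inj₀ (norm_nonneg _) (norm_nonneg _) two_ne_zero).1 this

theorem a1c_num_ann (hJ : IsCx J) (v : Θ) : C.num J * C.ann J v = C.ann J v * C.num J - C.ann J v := by
  have h1 := C.S_comm_θ hJ.1 v
  have h2 := C.S_comm_θ hJ.1 (J v)
  rw [hJ.2, map_neg] at h2
  rw [sub_eq_iff_eq_add] at h1 h2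
  simp only [num, iS, ann, add_mul, mul_add, mul_sub, sub_mul, smul_mul_assoc, mul_smul_comm, one_mul,
    mul_one, h1, h2, smul_add, smul_sub, smul_neg, smul_smul, Complex.I_mul_I]
  module

theorem a1c_star_mul (hJ : IsCx J) (v : Θ) : star (C.ann J v) * C.ann J v =
    ((‖v‖ ^ 2 : ℝ) : ℂ) • (1 : F →L[ℂ] F) + (2 * Complex.I) • (C.θ (J v) * C.θ v) := by
  have h1 := C.θ_sq v
  have h2 := C.θ_sq (J v)
  have h3 := C.anti v (J v)
  rw [real_inner_comm, a1c_skew_self hJ.1, Complex.ofReal_zero, zero_smul, add_eq_zero_iff_eq_neg] at h3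
  rw [a1c_norm_J hJ] at h2
  rw [a1c_star_ann, ann]
  simp only [add_mul, mul_sub, smul_mul_assoc, mul_smul_comm, h1, h2, h3, smul_add, smul_neg, smul_smul]
  have e : Complex.I * (Complex.I * ((‖v‖ ^ 2 / 2 : ℝ) : ℂ)) = -((‖v‖ ^ 2 / 2 : ℝ) : ℂ) := by
    rw [← mul_assoc, Complex.I_mul_I]; ring
  rw [e]
  push_cast
  module

theorem a1c_num_eq (hJ : IsCx J) : C.num J = (1 / 4 : ℂ) • ∑ i,
    star (C.ann J (stdOrthonormalBasis ℝ Θ i)) * C.ann J (stdOrthonormalBasis ℝ Θ i) := by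
  simp only [a1c_star_mul C hJ, OrthonormalBasis.norm_eq_one, Finset.sum_add_distrib, ← Finset.smul_sum,
    Finset.sum_const, Finset.card_univ, Fintype.card_fin, num, iS, S]
  rw [← Nat.cast_smul_eq_nsmul ℂ]
  push_cast
  module

theorem a1c_inner_num (hJ : IsCx J) (x : F) : (⟪x, C.num J x⟫_ℂ).re =
    1 / 4 * ∑ i, ‖C.ann J (stdOrthonormalBasis ℝ Θ i) x‖ ^ 2 := by
  have h : ∀ T : F →L[ℂ] F, ⟪x, (star T * T) x⟫_ℂ = ((‖T x‖ ^ 2 : ℝ) : ℂ) := fun T => by
    rw [ContinuousLinearMap.mul_apply, ContinuousLinearMap.star_eq_adjoint,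
      ContinuousLinearMap.adjoint_inner_right, inner_self_eq_norm_sq_to_K]
    push_cast
    rfl
  rw [a1c_num_eq C hJ, ContinuousLinearMap.smul_apply, ContinuousLinearMap.sum_apply, inner_smul_right,
    inner_sum]
  simp only [h]
  rw [← Complex.ofReal_sum, show (1 / 4 : ℂ) = ((1 / 4 : ℝ) : ℂ) by push_cast; rfl, ← Complex.ofReal_mul,
    Complex.ofReal_re]

theorem a1c_num_sa (hJ : IsCx J) : IsSelfAdjoint (C.num J) := by
  refine IsSelfAdjoint.add ?_ (C.iS_sa hJ.1)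
  rw [IsSelfAdjoint, star_smul, star_one]
  simp

theorem a1c_inner_eig {T : F →L[ℂ] F} {x : F} {μ : ℝ} (h : T x = (μ : ℂ) • x) :
    (⟪x, T x⟫_ℂ).re = μ * ‖x‖ ^ 2 := by
  rw [h, inner_smul_right, inner_self_eq_norm_sq_to_K]
  have : (μ : ℂ) * ((‖x‖ : ℂ)) ^ 2 = ((μ * ‖x‖ ^ 2 : ℝ) : ℂ) := by push_cast; rfl
  exact (congrArg Complex.re this).trans (Complex.ofReal_re _)

theorem a1c_ann_eig (hJ : IsCx J) {x : F} {μ : ℝ} (h : C.num J x = (μ : ℂ) • x) (v : Θ) :
    C.num J (C.ann J v x) = ((μ - 1 : ℝ) : ℂ) • C.ann J v x := by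
  have := congrArg (fun T : F →L[ℂ] F => T x) (a1c_num_ann C hJ v)
  simp only [ContinuousLinearMap.mul_apply, ContinuousLinearMap.sub_apply, h, map_smul] at this
  rw [this]
  push_cast
  module

theorem a1c_eig_bd (hJ : IsCx J) {x : F} (hx : x ≠ 0) {μ : ℝ} (h : C.num J x = (μ : ℂ) • x) :
    0 ≤ μ ∧ μ ≤ Module.finrank ℝ Θ := by
  have h1 := a1c_inner_num C hJ x
  rw [a1c_inner_eig h] at h1
  have hx2 : 0 < ‖x‖ ^ 2 := by positivity
  constructor
  · by_contra hμ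
    push Not at hμ
    have : 0 ≤ ∑ i, ‖C.ann J (stdOrthonormalBasis ℝ Θ i) x‖ ^ 2 := Finset.sum_nonneg fun i _ => sq_nonneg _
    nlinarith
  · have h2 : ∀ i, ‖C.ann J (stdOrthonormalBasis ℝ Θ i) x‖ ^ 2 ≤ 4 * ‖x‖ ^ 2 := fun i => by
      have a1 := C.norm_θ_le (stdOrthonormalBasis ℝ Θ i) x
      have a2 := C.norm_θ_le (J (stdOrthonormalBasis ℝ Θ i)) x
      rw [a1c_norm_J hJ] at a2
      rw [OrthonormalBasis.norm_eq_one, one_mul] at a1 a2
      have a3 : ‖C.ann J (stdOrthonormalBasis ℝ Θ i) x‖ ≤ 2 * ‖x‖ := by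
        rw [ann, ContinuousLinearMap.sub_apply, ContinuousLinearMap.smul_apply]
        refine (norm_sub_le _ _).trans ?_
        rw [norm_smul, Complex.norm_I, one_mul]
        linarith
      nlinarith [norm_nonneg (C.ann J (stdOrthonormalBasis ℝ Θ i) x)]
    have h3 := Finset.sum_le_sum fun i (_ : i ∈ Finset.univ) => h2 i
    rw [Finset.sum_const, Finset.card_univ, Fintype.card_fin, nsmul_eq_mul] at h3
    refine le_of_mul_le_mul_right ?_ hx2
    linarith

theorem a1c_eig_nat (hJ : IsCx J) (k : ℕ) : ∀ {x : F} {μ : ℝ}, x ≠ 0 → C.num J x = (μ : ℂ) • x → μ ≤ k →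
    (∃ m : ℕ, μ = m) ∧ ∃ y : F, y ≠ 0 ∧ C.num J y = 0 := by
  induction k with
  | zero =>
    intro x μ hx h hk
    have h0 : μ = 0 := le_antisymm (by simpa using hk) (a1c_eig_bd C hJ hx h).1
    exact ⟨⟨0, by simpa using h0⟩, x, hx, by simp [h, h0]⟩
  | succ k ih =>
    intro x μ hx h hk
    by_cases h0 : ∀ i, C.ann J (stdOrthonormalBasis ℝ Θ i) x = 0
    · have h1 := a1c_inner_num C hJ x
      rw [a1c_inner_eig h] at h1
      simp only [h0, norm_zero] at h1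
      have hx2 : ‖x‖ ^ 2 ≠ 0 := by positivity
      have h2 : μ = 0 := by simpa [hx] using h1
      exact ⟨⟨0, by simpa using h2⟩, x, hx, by simp [h, h2]⟩
    · push Not at h0
      obtain ⟨i, hi⟩ := h0
      obtain ⟨⟨m, hm⟩, hy⟩ := ih hi (a1c_ann_eig C hJ h _) (by push_cast at hk; linarith)
      exact ⟨⟨m + 1, by push_cast; linarith⟩, hy⟩

theorem a1c_pow {T : F →L[ℂ] F} {x : F} {μ : ℂ} (h : T x = μ • x) (k : ℕ) : (T ^ k) x = μ ^ k • x := by
  induction k with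
  | zero => simp
  | succ k ih => rw [pow_succ, ContinuousLinearMap.mul_apply, h, map_smul, ih, smul_smul, pow_succ']

theorem a1c_aeval {T : F →L[ℂ] F} {x : F} {μ : ℂ} (h : T x = μ • x) (p : Polynomial ℂ) :
    Polynomial.aeval T p x = p.eval μ • x := by
  induction p using Polynomial.induction_on' with
  | add p q hp hq => rw [map_add, ContinuousLinearMap.add_apply, hp, hq, Polynomial.eval_add, add_smul]
  | monomial k a =>
    rw [Polynomial.aeval_monomial, Polynomial.eval_monomial, ContinuousLinearMap.mul_apply, a1c_pow h,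
      Algebra.algebraMap_eq_smul_one, ContinuousLinearMap.smul_apply, ContinuousLinearMap.one_apply, smul_smul]

theorem a1c_vac_eig {x : F} {m : ℕ} (hm : m ≤ Module.finrank ℝ Θ) (h : C.num J x = (m : ℂ) • x) :
    C.vac J x = if m = 0 then x else 0 := by
  rw [vac, a1c_aeval h, Polynomial.eval_prod]
  split_ifs with h0
  · simp [h0]
  · rw [Finset.prod_eq_zero (i := m) (Finset.mem_Icc.2 ⟨Nat.pos_of_ne_zero h0, hm⟩), zero_smul]
    have : (m : ℂ) ≠ 0 := Nat.cast_ne_zero.2 h0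
    simp [this]

theorem a1c_basis (hJ : IsCx J) : ∃ (b : OrthonormalBasis (Fin (Module.finrank ℂ F)) ℂ F)
    (m : Fin (Module.finrank ℂ F) → ℕ), (∀ i, C.num J (b i) = (m i : ℂ) • b i) ∧
      ∀ i, C.vac J (b i) = if m i = 0 then b i else 0 := by
  have hT := (a1c_num_sa C hJ).isSymmetric
  have h1 : ∀ i, C.num J (hT.eigenvectorBasis rfl i) =
      ((hT.eigenvalues rfl i : ℝ) : ℂ) • hT.eigenvectorBasis rfl i := fun i => hT.apply_eigenvectorBasis rfl i
  have h0 : ∀ i, hT.eigenvectorBasis rfl i ≠ 0 := fun i => (hT.eigenvectorBasis rfl).orthonormal.ne_zero i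
  choose m hm using fun i => (a1c_eig_nat C hJ _ (h0 i) (h1 i) (a1c_eig_bd C hJ (h0 i) (h1 i)).2).1
  have h2 : ∀ i, C.num J (hT.eigenvectorBasis rfl i) = (m i : ℂ) • hT.eigenvectorBasis rfl i := fun i => by
    rw [h1, hm]; rfl
  refine ⟨hT.eigenvectorBasis rfl, m, h2, fun i => a1c_vac_eig C ?_ (h2 i)⟩
  have := (a1c_eig_bd C hJ (h0 i) (h1 i)).2
  rw [hm] at this
  exact_mod_cast this

theorem a1c_ext {ι : Type} [Fintype ι] (b : OrthonormalBasis ι ℂ F) {S T : F →L[ℂ] F}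
    (h : ∀ i, S (b i) = T (b i)) : S = T :=
  ContinuousLinearMap.coe_injective (b.toBasis.ext fun i => by simpa using h i)

theorem vac_sa (hJ : IsCx J) : IsSelfAdjoint (C.vac J) := by
  have hN := (a1c_num_sa C hJ).star_eq
  refine Finset.prod_induction _ (fun p => IsSelfAdjoint (Polynomial.aeval (C.num J) p)) (fun p q hp hq => ?_)
    (by simp) fun k _ => ?_
  · rw [IsSelfAdjoint, map_mul, star_mul, hp.star_eq, hq.star_eq, ← map_mul, mul_comm, map_mul]
  · rw [IsSelfAdjoint, map_sub, map_one, map_mul, Polynomial.aeval_C, Polynomial.aeval_X,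
      Algebra.algebraMap_eq_smul_one, smul_mul_assoc, one_mul, star_sub, star_one, star_smul, hN]
    simp

theorem vac_idem (hJ : IsCx J) : C.vac J * C.vac J = C.vac J := by
  obtain ⟨b, m, h1, h2⟩ := a1c_basis C hJ
  refine a1c_ext b fun i => ?_
  rw [ContinuousLinearMap.mul_apply, h2]
  split_ifs with h0
  · rw [h2, if_pos h0]
  · simp

theorem a1c_num_vac (hJ : IsCx J) : C.num J * C.vac J = 0 := by
  obtain ⟨b, m, h1, h2⟩ := a1c_basis C hJ
  refine a1c_ext b fun i => ?_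
  rw [ContinuousLinearMap.mul_apply, h2]
  split_ifs with h0
  · simp [h1, h0]
  · simp

theorem ann_vac (hJ : IsCx J) (v : Θ) : C.ann J v * C.vac J = 0 := by
  ext x
  have h1 : C.num J (C.vac J x) = ((0 : ℝ) : ℂ) • C.vac J x := by
    have := congrArg (fun T : F →L[ℂ] F => T x) (a1c_num_vac C hJ)
    simpa using this
  by_contra h
  have := (a1c_eig_bd C hJ h (a1c_ann_eig C hJ h1 v)).1
  linarith

/-- Adjoint form of `ann_vac`. -/
theorem vac_cre (hJ : IsCx J) (v : Θ) : C.vac J * (C.θ v + Complex.I • C.θ (J v)) = 0 := by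
  have := congrArg star (C.ann_vac hJ v)
  rwa [star_mul, (C.vac_sa hJ).star_eq, a1c_star_ann, star_zero] at this

theorem num_vac (hJ : IsCx J) : C.num J * C.vac J = 0 := by
  exact a1c_num_vac C hJ

theorem a1c_θ_vac (hJ : IsCx J) (v : Θ) :
    C.θ v * C.vac J = (1 / 2 : ℂ) • ((C.θ v + Complex.I • C.θ (J v)) * C.vac J) := by
  have h := C.ann_vac hJ v
  rw [ann, sub_mul, sub_eq_zero] at h
  rw [add_mul, ← h]
  module

theorem vac_θ_vac (hJ : IsCx J) (u : Θ) : C.vac J * C.θ u * C.vac J = 0 := by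
  rw [mul_assoc, a1c_θ_vac C hJ, mul_smul_comm, ← mul_assoc, C.vac_cre hJ]
  simp

theorem vac_θθ_vac (hJ : IsCx J) (u v : Θ) : C.vac J * C.θ u * C.θ v * C.vac J =
    (1 / 2 * ((⟪u, v⟫_ℝ : ℝ) + Complex.I * (⟪u, J v⟫_ℝ : ℝ)) : ℂ) • C.vac J := by
  have h1 : C.θ u * (C.θ v + Complex.I • C.θ (J v)) =
      (((⟪u, v⟫_ℝ : ℝ) : ℂ) + Complex.I * (⟪u, J v⟫_ℝ : ℝ)) • (1 : F →L[ℂ] F) -
        (C.θ v + Complex.I • C.θ (J v)) * C.θ u := by
    have a1 := eq_sub_of_add_eq (C.anti u v)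
    have a2 := eq_sub_of_add_eq (C.anti u (J v))
    rw [mul_add, add_mul, mul_smul_comm, smul_mul_assoc, a1, a2]
    module
  rw [mul_assoc, a1c_θ_vac C hJ, mul_smul_comm, ← mul_assoc, mul_assoc (C.vac J), h1, mul_sub, ← mul_assoc,
    C.vac_cre hJ, zero_mul, sub_zero, mul_smul_comm, mul_one, smul_mul_assoc, C.vac_idem hJ, smul_smul]

theorem vac_S_vac (hJ : IsCx J) {A : Θ →ₗ[ℝ] Θ} (hA : IsSkew A) : C.vac J * C.S A * C.vac J =
    (-Complex.I / 4 * (LinearMap.trace ℝ Θ (J ∘ₗ A) : ℝ) : ℂ) • C.vac J := by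
  have h : ∀ e : Θ, C.vac J * (C.θ (A e) * C.θ e) * C.vac J =
      (-Complex.I / 2 * (⟪e, (J ∘ₗ A) e⟫_ℝ : ℝ) : ℂ) • C.vac J := fun e => by
    rw [← mul_assoc, C.vac_θθ_vac hJ, a1c_skew_self hA, LinearMap.comp_apply, real_inner_comm (J (A e)) e,
      hJ.1 (A e) e]
    congr 1
    push_cast
    ring
  rw [S, mul_smul_comm, smul_mul_assoc, Finset.mul_sum, Finset.sum_mul]
  simp only [h]
  rw [← Finset.sum_smul, smul_smul, LinearMap.trace_eq_sum_inner _ (stdOrthonormalBasis ℝ Θ), ← Finset.mul_sum]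
  congr 1
  push_cast
  ring

theorem comm_vac (T : F →L[ℂ] F) (h : T * C.S J = C.S J * T) : T * C.vac J = C.vac J * T := by
  have hN : Commute T (C.num J) := by
    rw [Commute, SemiconjBy, num, iS, mul_add, add_mul, mul_smul_comm, mul_smul_comm, smul_mul_assoc,
      smul_mul_assoc, h, mul_one, one_mul]
  have : ∀ p : Polynomial ℂ, Commute T (Polynomial.aeval (C.num J) p) := fun p => by
    induction p using Polynomial.induction_on' with
    | add p q hp hq => rw [map_add]; exact hp.add_right hq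
    | monomial k a =>
      rw [Polynomial.aeval_monomial]
      exact (Algebra.commute_algebraMap_right a T).mul_right (hN.pow_right k)
  exact this _

theorem S_comm_vac (hJ : IsCx J) {A : Θ →ₗ[ℝ] Θ} (hA : IsSkew A) (h : A ∘ₗ J = J ∘ₗ A) :
    C.S A * C.vac J = C.vac J * C.S A := by
  refine C.comm_vac _ ?_
  have := C.S_lie hA hJ.1
  rwa [h, sub_self, C.S_zero, sub_eq_zero] at this

theorem num_ge (hJ : IsCx J) (a : F) :
    ‖a‖ ^ 2 - ‖C.vac J a‖ ^ 2 ≤ (⟪a, C.num J a⟫_ℂ).re := by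
  obtain ⟨b, m, h1, h2⟩ := a1c_basis C hJ
  have s1 := (a1c_num_sa C hJ).isSymmetric
  have s2 := (C.vac_sa hJ).isSymmetric
  rw [← b.sum_sq_norm_inner_right a, ← b.sum_sq_norm_inner_right (C.vac J a), ← b.sum_inner_mul_inner,
    Complex.re_sum, ← Finset.sum_sub_distrib]
  refine Finset.sum_le_sum fun i _ => ?_
  have e1 : ⟪b i, C.num J a⟫_ℂ = (m i : ℂ) * ⟪b i, a⟫_ℂ := by
    have := s1 (b i) a
    simp only [ContinuousLinearMap.coe_coe] at this
    rw [← this, h1, inner_smul_left]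
    simp
  have e2 : ⟪b i, C.vac J a⟫_ℂ = ⟪C.vac J (b i), a⟫_ℂ := (s2 (b i) a).symm
  have e3 : ⟪a, b i⟫_ℂ * ((m i : ℂ) * ⟪b i, a⟫_ℂ) = ((m i * ‖⟪b i, a⟫_ℂ‖ ^ 2 : ℝ) : ℂ) := by
    rw [← inner_conj_symm a (b i), mul_left_comm, Complex.conj_mul']
    push_cast
    rfl
  rw [e1, e2, e3, Complex.ofReal_re, h2]
  split_ifs with h0
  · simp [h0]
  · have : (1 : ℝ) ≤ m i := by exact_mod_cast Nat.pos_of_ne_zero h0
    rw [inner_zero_left, norm_zero]
    nlinarith [sq_nonneg ‖⟪b i, a⟫_ℂ‖]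

theorem vac_ne_zero [Nontrivial F] (hJ : IsCx J) : C.vac J ≠ 0 := by
  obtain ⟨b, m, h1, -⟩ := a1c_basis C hJ
  have i : Fin (Module.finrank ℂ F) := ⟨0, Module.finrank_pos⟩
  obtain ⟨-, y, hy, h0⟩ := a1c_eig_nat C hJ (m i) (μ := m i) (b.orthonormal.ne_zero i) (h1 i) le_rfl
  intro h
  have := a1c_vac_eig C (m := 0) (x := y) (Nat.zero_le _) (by simpa using h0)
  rw [h] at this
  exact hy (by simpa using this.symm)

theorem exp_num (hJ : IsCx J) : NormedSpace.exp ((2 * Real.pi * Complex.I) • C.num J) = 1 := by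
  obtain ⟨b, m, h1, -⟩ := a1c_basis C hJ
  refine a1c_ext b fun i => ?_
  have h2 : ((2 * Real.pi * Complex.I : ℂ) • C.num J) (b i) = ((m i : ℂ) * (2 * Real.pi * Complex.I)) • b i := by
    rw [ContinuousLinearMap.smul_apply, h1, smul_smul, mul_comm]
  have h3 := (ContinuousLinearMap.apply ℂ F (b i)).hasSum
    (NormedSpace.exp_series_hasSum_exp' (𝕂 := ℂ) ((2 * Real.pi * Complex.I : ℂ) • C.num J))
  have h4 := (NormedSpace.exp_series_hasSum_exp' (𝕂 := ℂ)
    ((m i : ℂ) * (2 * Real.pi * Complex.I))).smul_const (b i)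
  rw [← Complex.exp_eq_exp_ℂ, Complex.exp_nat_mul_two_pi_mul_I, one_smul] at h4
  refine h3.unique (a₂ := b i) ?_
  convert h4 using 2 with n
  rw [ContinuousLinearMap.apply_apply, ContinuousLinearMap.smul_apply, a1c_pow h2, smul_smul, smul_eq_mul]

end Vac

end Cl

end Crest.Agent.R330

end
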