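import Crest.Agent.R330.A1.C

/-! # Row 330, A1/D (statements frozen; see `R330/Blueprint.lean`) -/

set_option autoImplicit false
set_option linter.unusedSectionVars false

noncomputable section

open MeasureTheory Filter Topology
open scoped InnerProductSpace ContDiff Matrix

namespace Crest.Agent.R330

variable {Θ Θ' F : Type} [NormedAddCommGroup Θ] [InnerProductSpace ℝ Θ] [FiniteDimensional ℝ Θ]
  [NormedAddCommGroup Θ'] [InnerProductSpace ℝ Θ'] [FiniteDimensional ℝ Θ']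
  [NormedAddCommGroup F] [InnerProductSpace ℂ F] [FiniteDimensional ℂ F]

namespace Cl

variable (C : Cl Θ F)

section Vac

variable {J : Θ →ₗ[ℝ] Θ}

theorem Da_skew (hJ : IsCx J) {B : Θ →ₗ[ℝ] Θ} (hB : ∀ u v, ⟪B u, v⟫_ℝ = ⟪u, B v⟫_ℝ)
    (hBJ : B ∘ₗ J = J ∘ₗ B) : IsSkew (J ∘ₗ B) := fun u v => by
  have k : B (J v) = J (B v) := LinearMap.congr_fun hBJ v
  rw [LinearMap.comp_apply, LinearMap.comp_apply, hJ.1, hB, k]

/-- Gap of a bilinear `J B` with `B ≥ lm` symmetric and commuting with `J`. -/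
theorem iS_gap (hJ : IsCx J) {B : Θ →ₗ[ℝ] Θ} (hB : ∀ u v, ⟪B u, v⟫_ℝ = ⟪u, B v⟫_ℝ)
    (hBJ : B ∘ₗ J = J ∘ₗ B) (lm : ℝ) (hlm : 0 ≤ lm) (hge : ∀ v, lm * ‖v‖ ^ 2 ≤ ⟪v, B v⟫_ℝ) (a : F) :
    -(LinearMap.trace ℝ Θ B / 4) * ‖a‖ ^ 2 + lm * (‖a‖ ^ 2 - ‖C.vac J a‖ ^ 2) ≤
      (⟪a, C.iS (J ∘ₗ B) a⟫_ℂ).re :=
by
  let B' : Θ →ₗ[ℝ] Θ := B - lm • LinearMap.id
  have e : ∀ v, B' v = B v - lm • v := fun v => rfl
  have h1 : ∀ u v, ⟪B' u, v⟫_ℝ = ⟪u, B' v⟫_ℝ := fun u v => by
    rw [e, e, inner_sub_left, inner_sub_right, hB, real_inner_smul_left, real_inner_smul_right]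
  have h2 : B' ∘ₗ J = J ∘ₗ B' := by
    simp only [B', LinearMap.sub_comp, LinearMap.comp_sub, hBJ, LinearMap.smul_comp, LinearMap.comp_smul,
      LinearMap.id_comp, LinearMap.comp_id]
  have h3 : ∀ v, 0 ≤ ⟪v, B' v⟫_ℝ := fun v => by
    rw [e, inner_sub_right, real_inner_smul_right, real_inner_self_eq_norm_sq]
    linarith [hge v]
  have h4 := C.iS_lower (Da_skew hJ h1 h2) h1 (fun u v => by
    have k := h3 (J u + v)
    have k1 : B' (J u) = J (B' u) := LinearMap.congr_fun h2 u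
    have k2 : ⟪J u, B' (J u)⟫_ℝ = ⟪u, B' u⟫_ℝ := by rw [k1, hJ.1, hJ.2, inner_neg_right, neg_neg]
    have k3 : ⟪v, B' (J u)⟫_ℝ = ⟪J u, B' v⟫_ℝ := by rw [← h1, real_inner_comm]
    have k4 := hJ.1 u (B' v)
    rw [map_add, inner_add_left, inner_add_right, inner_add_right] at k
    rw [LinearMap.comp_apply]
    linarith) a
  have h5 := C.num_ge hJ a
  have h6 : C.iS (J ∘ₗ B) = C.iS (J ∘ₗ B') + (lm : ℂ) • (C.num J - ((Module.finrank ℝ Θ : ℂ) / 4) • 1) := by
    rw [num, add_sub_cancel_left, iS, iS, iS, smul_comm, ← smul_add, ← C.S_smul, ← C.S_add]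
    congr 2
    ext v; simp [B']
  have h7 : LinearMap.trace ℝ Θ B' = LinearMap.trace ℝ Θ B - lm * Module.finrank ℝ Θ := by simp [B']
  have h8 : (⟪a, (((Module.finrank ℝ Θ : ℂ) / 4) • (1 : F →L[ℂ] F)) a⟫_ℂ).re =
      (Module.finrank ℝ Θ : ℝ) / 4 * ‖a‖ ^ 2 := by
    rw [smul_apply, one_apply_eq_self, inner_smul_right, inner_self_eq_norm_sq_to_K]
    have : (Module.finrank ℝ Θ : ℂ) / 4 * (‖a‖ : ℂ) ^ 2 = (((Module.finrank ℝ Θ : ℝ) / 4 * ‖a‖ ^ 2 : ℝ) : ℂ) := by
      push_cast; rfl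
    exact (congrArg Complex.re this).trans (Complex.ofReal_re _)
  rw [h6, add_apply, inner_add_right, Complex.add_re, smul_apply,
    inner_smul_right, Complex.re_ofReal_mul, sub_apply, inner_sub_right, Complex.sub_re, h8]
  rw [h7] at h4
  nlinarith [mul_le_mul_of_nonneg_left h5 hlm]

theorem iS_vac (hJ : IsCx J) {B : Θ →ₗ[ℝ] Θ} (hB : ∀ u v, ⟪B u, v⟫_ℝ = ⟪u, B v⟫_ℝ)
    (hBJ : B ∘ₗ J = J ∘ₗ B) :
    C.iS (J ∘ₗ B) * C.vac J = (-(LinearMap.trace ℝ Θ B / 4 : ℝ) : ℂ) • C.vac J :=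
by
  have h1 := Da_skew hJ hB hBJ
  have h2 := C.S_comm_vac hJ h1 (by rw [LinearMap.comp_assoc, hBJ])
  have h3 : J ∘ₗ J ∘ₗ B = -B := by ext v; exact hJ.2 _
  have h4 := C.vac_S_vac hJ h1
  rw [← h2, mul_assoc, C.vac_idem hJ, h3, map_neg] at h4
  rw [iS, smul_mul_assoc, h4, smul_smul]
  congr 1
  push_cast
  linear_combination (((LinearMap.trace ℝ Θ B : ℝ) : ℂ) / 4) * Complex.I_mul_I

/-- In an irreducible module the vacuum is a line. -/
theorem vac_rank_one [Nontrivial F] (hJ : IsCx J) (hirr : C.Irr) :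
    ∃ w : F, ‖w‖ = 1 ∧ ∀ a, C.vac J a = ⟪w, a⟫_ℂ • w :=
by
  have : CompleteSpace F := FiniteDimensional.complete ℂ F
  obtain ⟨a₀, ha⟩ : ∃ a, C.vac J a ≠ 0 := by
    by_contra! k
    exact C.vac_ne_zero hJ (ContinuousLinearMap.ext k)
  set w : F := ((‖C.vac J a₀‖⁻¹ : ℝ) : ℂ) • C.vac J a₀ with hw
  have w1 : ‖w‖ = 1 := by
    rw [hw, norm_smul, Complex.norm_real, norm_inv, norm_norm, inv_mul_cancel₀ (norm_ne_zero_iff.2 ha)]
  have w2 : C.vac J w = w := by
    rw [hw, map_smul, ← mul_apply_eq_comp, C.vac_idem hJ]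
  let cre : Θ → F →L[ℂ] F := fun v => C.θ v + Complex.I • C.θ (J v)
  let 𝒮 : Set (Submodule ℂ F) := {W | w ∈ W ∧ ∀ v, ∀ x ∈ W, cre v x ∈ W}
  have u1 : w ∈ sInf 𝒮 := Submodule.mem_sInf.2 fun W hW => hW.1
  have u2 : ∀ v, ∀ x ∈ sInf 𝒮, cre v x ∈ sInf 𝒮 := fun v x hx =>
    Submodule.mem_sInf.2 fun W hW => hW.2 v x (Submodule.mem_sInf.1 hx W hW)
  have ac : ∀ u v, ∃ c : ℂ, ∀ x, C.ann J u (cre v x) = c • x - cre v (C.ann J u x) := fun u v => by
    refine ⟨⟪u, v⟫_ℝ + Complex.I * ⟪u, J v⟫_ℝ - Complex.I * ⟪J u, v⟫_ℝ + ⟪J u, J v⟫_ℝ, fun x => ?_⟩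
    have k := fun a b => congrArg (fun T : F →L[ℂ] F => T x) (C.anti a b)
    simp only [add_apply, mul_apply_eq_comp, smul_apply,
      one_apply_eq_self] at k
    simp only [ann, cre, add_apply, sub_apply, smul_apply,
      map_add, map_sub, map_smul]
    linear_combination (norm := module) k u v + Complex.I • k u (J v) - Complex.I • k (J u) v + k (J u) (J v) -
      Complex.I_mul_I • C.θ (J u) (C.θ (J v) x) - Complex.I_mul_I • C.θ (J v) (C.θ (J u) x)
  have u3 : sInf 𝒮 ≤ sInf 𝒮 ⊓ ⨅ u, (sInf 𝒮).comap (C.ann J u : F →ₗ[ℂ] F) := by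
    refine sInf_le ⟨⟨u1, (Submodule.mem_iInf _).2 fun u => ?_⟩, fun v x hx => ⟨u2 v x hx.1,
      (Submodule.mem_iInf _).2 fun u => ?_⟩⟩
    · change C.ann J u w ∈ sInf 𝒮
      rw [← w2, ← mul_apply_eq_comp, C.ann_vac hJ]
      exact Submodule.zero_mem _
    · obtain ⟨c, hc⟩ := ac u v
      change C.ann J u (cre v x) ∈ sInf 𝒮
      rw [hc]
      exact Submodule.sub_mem _ (Submodule.smul_mem _ _ hx.1) (u2 v _ ((Submodule.mem_iInf _).1 hx.2 u))
  have u4 : sInf 𝒮 = ⊤ := (hirr _ fun v x hx => by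
    have : C.θ v x = (1 / 2 : ℂ) • (cre v x + C.ann J v x) := by
      simp only [ann, cre, add_apply, sub_apply, smul_apply]
      module
    rw [this]
    exact Submodule.smul_mem _ _ (Submodule.add_mem _ (u2 v x hx) ((Submodule.mem_iInf _).1 (u3 hx).2 v))).resolve_left
    fun k => by
      rw [k, Submodule.mem_bot] at u1
      simp [u1] at w1
  have u5 : sInf 𝒮 ≤ (Submodule.span ℂ {w}).comap (C.vac J : F →ₗ[ℂ] F) := by
    refine sInf_le ⟨?_, fun v x _ => ?_⟩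
    · change C.vac J w ∈ Submodule.span ℂ {w}
      rw [w2]; exact Submodule.mem_span_singleton_self w
    · change C.vac J (cre v x) ∈ Submodule.span ℂ {w}
      rw [← mul_apply_eq_comp, C.vac_cre hJ]
      exact Submodule.zero_mem _
  refine ⟨w, w1, fun a => ?_⟩
  obtain ⟨c, hc⟩ := Submodule.mem_span_singleton.1 (u5 (u4 ▸ Submodule.mem_top : a ∈ sInf 𝒮))
  have hc : c • w = C.vac J a := hc
  have k : ⟪C.vac J w, a⟫_ℂ = ⟪w, C.vac J a⟫_ℂ := (C.vac_sa hJ).isSymmetric w a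
  rw [w2, ← hc, inner_smul_right, inner_self_eq_norm_sq_to_K, w1] at k
  rw [← hc, k]; simp

/-- `exp(π S(J))` is a fermion parity. -/
theorem isPar_exp (hJ : IsCx J) (h4 : 4 ∣ Module.finrank ℝ Θ) :
    IsPar C (NormedSpace.exp (((Real.pi : ℝ) : ℂ) • C.S J)) :=
by
  have : CompleteSpace F := FiniteDimensional.complete ℂ F
  let _ : NormedAlgebra ℚ (F →L[ℂ] F) := NormedAlgebra.restrictScalars ℚ ℂ _
  set A := ((Real.pi : ℝ) : ℂ) • C.S J with hA
  obtain ⟨k, hk⟩ := h4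
  have h1 : NormedSpace.exp A * NormedSpace.exp (-A) = 1 := by
    rw [← NormedSpace.exp_add_of_commute (Commute.refl A).neg_right, add_neg_cancel, NormedSpace.exp_zero]
  have h2 : NormedSpace.exp (-A) * NormedSpace.exp (-A) = 1 := by
    have e := C.exp_num hJ
    have e1 : (2 * Real.pi * Complex.I) • C.num J =
        algebraMap ℂ (F →L[ℂ] F) (k * (2 * Real.pi * Complex.I)) + (-A + -A) := by
      rw [num, iS, hk, Algebra.algebraMap_eq_smul_one, hA]
      push_cast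
      linear_combination (norm := module) (congrArg (2 * (Real.pi : ℂ) * ·) Complex.I_mul_I) • C.S J
    rwa [e1, NormedSpace.exp_add_of_commute (Algebra.commutes _ _), ← NormedSpace.algebraMap_exp_comm,
      ← Complex.exp_eq_exp_ℂ, Complex.exp_nat_mul_two_pi_mul_I, map_one, one_mul,
      NormedSpace.exp_add_of_commute (Commute.refl _)] at e
  have h3 : NormedSpace.exp A = NormedSpace.exp (-A) := by
    rw [← mul_one (NormedSpace.exp A), ← h2, ← mul_assoc, h1, one_mul]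
  refine ⟨?_, by rw [h3, h2], fun v => ?_⟩
  · rw [IsSelfAdjoint, NormedSpace.star_exp, h3, hA, star_smul, C.star_S hJ.1]
    simp
  · have k1 : IsSkew (Real.pi • J) := fun a b => by
      rw [LinearMap.smul_apply, LinearMap.smul_apply, real_inner_smul_left, real_inner_smul_right, hJ.1, mul_neg]
    have k2 := C.exp_S_θ k1 v
    rw [C.S_smul, rexp'_cx v (hJ.2 v)] at k2
    simpa [hA] using k2

end Vac

section VacDeriv

variable {Y : Type} [NormedAddCommGroup Y] [NormedSpace ℝ Y]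

/-- `num` as an affine function of the complex structure -/
theorem db_num : ∃ L : (Θ →L[ℝ] Θ) →L[ℝ] (F →L[ℂ] F), (∀ A, L A = Complex.I • C.S A.toLinearMap) ∧
    ∀ J : Θ →ₗ[ℝ] Θ, C.num J =
      ((Module.finrank ℝ Θ : ℂ) / 4) • (1 : F →L[ℂ] F) + L (LinearMap.toContinuousLinearMap J) :=
  ⟨LinearMap.toContinuousLinearMap
    { toFun := fun A => Complex.I • C.S A.toLinearMap
      map_add' := fun A B => by rw [ContinuousLinearMap.coe_add, C.S_add, smul_add]
      map_smul' := fun r A => by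
        rw [ContinuousLinearMap.coe_smul, C.S_smul, smul_comm, RingHom.id_apply, Complex.coe_smul] },
    fun _ => rfl, fun _ => rfl⟩

theorem db_aeval {N : Y → F →L[ℂ] F} {y v : Y} {b : F →L[ℂ] F} (hN : DifferentiableAt ℝ N y)
    (h : fderiv ℝ N y v = b * N y - N y * b) (p : Polynomial ℂ) :
    DifferentiableAt ℝ (fun y => Polynomial.aeval (N y) p) y ∧ fderiv ℝ (fun y => Polynomial.aeval (N y) p) y v =
      b * Polynomial.aeval (N y) p - Polynomial.aeval (N y) p * b := by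
  induction p using Polynomial.induction_on with
  | C a => simp [Algebra.commutes]
  | add p q hp hq =>
    simp only [map_add]
    refine ⟨hp.1.add hq.1, ?_⟩
    rw [fderiv_fun_add hp.1 hq.1, ContinuousLinearMap.add_apply, hp.2, hq.2]
    noncomm_ring
  | monomial n a hp =>
    simp only [pow_succ, ← mul_assoc, map_mul _ _ Polynomial.X, Polynomial.aeval_X]
    refine ⟨hp.1.mul hN, ?_⟩
    rw [fderiv_fun_mul' hp.1 hN]
    simp only [ContinuousLinearMap.add_apply, ContinuousLinearMap.smul_apply, hp.2, h, smul_eq_mul,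
      MulOpposite.smul_eq_mul_unop, MulOpposite.unop_op]
    noncomm_ring

/-- The vacuum projector depends smoothly on the complex structure. -/
theorem contDiffOn_vac (J : Y → Θ →ₗ[ℝ] Θ) (U : Set Y)
    (hJ : ContDiffOn ℝ ∞ (fun y => LinearMap.toContinuousLinearMap (J y)) U) :
    ContDiffOn ℝ ∞ (fun y => C.vac (J y)) U := by
  obtain ⟨L, -, hL⟩ := C.db_num
  have hN : ContDiffOn ℝ ∞ (fun y => C.num (J y)) U := by
    simp only [hL]
    exact contDiffOn_const.add (L.contDiff.comp_contDiffOn hJ)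
  unfold vac
  generalize (∏ k ∈ Finset.Icc 1 (Module.finrank ℝ Θ), _ : Polynomial ℂ) = p
  induction p using Polynomial.induction_on with
  | C a => simpa using contDiffOn_const
  | add p q hp hq => simpa only [map_add] using hp.add hq
  | monomial n a hp =>
    simpa only [pow_succ, ← mul_assoc, map_mul _ _ Polynomial.X, Polynomial.aeval_X] using hp.mul hN

/-- Derivative of the vacuum projector: `∂Π = [S(B), Π]` with `B = -½ (∂J) J`. -/
theorem fderiv_vac (J : Y → Θ →ₗ[ℝ] Θ) (y : Y) (hcx : ∀ᶠ y' in 𝓝 y, IsCx (J y'))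
    (J' : Y →L[ℝ] (Θ →L[ℝ] Θ))
    (hJ : HasFDerivAt (fun y => LinearMap.toContinuousLinearMap (J y)) J' y) (v : Y) :
    IsSkew ((-1 / 2 : ℝ) • ((J' v).toLinearMap ∘ₗ J y)) ∧
    DifferentiableAt ℝ (fun y => C.vac (J y)) y ∧
    fderiv ℝ (fun y => C.vac (J y)) y v =
      C.S ((-1 / 2 : ℝ) • ((J' v).toLinearMap ∘ₗ J y)) * C.vac (J y) -
        C.vac (J y) * C.S ((-1 / 2 : ℝ) • ((J' v).toLinearMap ∘ₗ J y)) := by
  have h0 := hcx.self_of_nhds
  have ha := fun u => hJ.clm_apply (hasFDerivAt_const u y)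
  have h1 : IsSkew (J' v).toLinearMap := fun u w => by
    have := ((ha u).inner ℝ (hasFDerivAt_const w y)).unique (((hasFDerivAt_const u y).inner ℝ (ha w)).neg
      |>.congr_of_eventuallyEq (hcx.mono fun y' h => h.1 u w))
    simpa using DFunLike.congr_fun this v
  have h2 : ∀ u, J y (J' v u) = -J' v (J y u) := fun u => by
    have := (hJ.clm_apply (ha u)).unique
      ((hasFDerivAt_const (-u) y).congr_of_eventuallyEq (hcx.mono fun y' h => h.2 u))
    simpa [add_eq_zero_iff_eq_neg] using DFunLike.congr_fun this v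
  have h3 : IsSkew ((-1 / 2 : ℝ) • ((J' v).toLinearMap ∘ₗ J y)) := fun u w => by
    have a := h1 (J y u) w
    have b := h0.1 u (J' v w)
    simp only [LinearMap.smul_apply, LinearMap.comp_apply, inner_smul_left, inner_smul_right, conj_trivial,
      ContinuousLinearMap.coe_coe, h2, inner_neg_right] at a b ⊢
    linarith
  obtain ⟨L, hL, hN⟩ := C.db_num
  have h4 : HasFDerivAt (fun y => C.num (J y)) (L.comp J') y := by
    simp only [hN]
    exact (L.hasFDerivAt.comp y hJ).const_add _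
  refine ⟨h3, db_aeval h4.differentiableAt ?_ _⟩
  have h5 : (J' v).toLinearMap = ((-1 / 2 : ℝ) • ((J' v).toLinearMap ∘ₗ J y)) ∘ₗ J y -
      J y ∘ₗ ((-1 / 2 : ℝ) • ((J' v).toLinearMap ∘ₗ J y)) := by
    ext u
    simp only [LinearMap.sub_apply, LinearMap.smul_apply, LinearMap.comp_apply, map_smul, ContinuousLinearMap.coe_coe,
      h2, h0.2, map_neg]
    module
  rw [h4.fderiv, ContinuousLinearMap.comp_apply, hL, num, iS, mul_add, add_mul, mul_smul_comm, smul_mul_assoc, mul_one,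
    one_mul, mul_smul_comm, smul_mul_assoc, add_sub_add_left_eq_sub, ← smul_sub, C.S_lie h3 h0.1, ← h5]

end VacDeriv

end Cl

end Crest.Agent.R330

end
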